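import Vale.Agent.P195.Main

open CategoryTheory

namespace Vale.Agent.Results.P195.Counterexample

/-- Over every field of characteristic zero there is a finite-dimensional algebra with a finitely
generated non-projective left module all of whose higher extensions with itself and with the
algebra vanish. -/
theorem result (K : Type) [Field K] [CharZero K] :
    ∃ (A : Type) (_ : Ring A) (_ : Algebra K A), Module.Finite K A ∧
      ∃ M : ModuleCat.{0} A, Module.Finite A M ∧
        (∀ i : ℕ, 1 ≤ i → Subsingleton (Abelian.Ext M M i) ∧
          Subsingleton (Abelian.Ext M (ModuleCat.of A A) i)) ∧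
        ¬ Module.Projective A M := by
  refine ⟨Vale.Agent.P195.Alg K, inferInstance, inferInstance, inferInstance,
    (Vale.Agent.P195.RR K).Kc 3, Vale.Agent.P195.fin_M, fun i hi => ?_,
    Vale.Agent.P195.main.2⟩
  obtain ⟨i, rfl⟩ := Nat.exists_eq_add_of_le' hi
  obtain ⟨h1, h2⟩ := Vale.Agent.P195.main (K := K).1 i
  exact ⟨⟨fun a b => (h1 a).trans (h1 b).symm⟩, ⟨fun a b => (h2 a).trans (h2 b).symm⟩⟩

end Vale.Agent.Results.P195.Counterexample
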